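import Vale.Agent.P082.Final
import Vale.Agent.P082.AvgCB

attribute [-instance] Vale.Agent.P082.algCStar Vale.Agent.P082.algOrd

namespace Vale.Agent.Results.P082.Vanishing

open Vale.Agent.P082

universe u

theorem result {K : Type u} [NormedAddCommGroup K] [InnerProductSpace ℂ K] [CompleteSpace K]
    (M : VonNeumannAlgebra K) (k : ℕ)
    (f : ContinuousMultilinearMap ℂ (fun _ : Fin (k + 1) => M.toStarSubalgebra) M.toStarSubalgebra)
    (hf : ∀ a : Fin (k + 2) → M.toStarSubalgebra, hochD f a = 0) :
    ∃ g : ContinuousMultilinearMap ℂ (fun _ : Fin k => M.toStarSubalgebra) M.toStarSubalgebra,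
      ∀ a : Fin (k + 1) → M.toStarSubalgebra, f a = hochD g a :=
  vanish M avgCB k f hf

end Vale.Agent.Results.P082.Vanishing
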